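import Vale.Agent.IsingFIID.Assembly

/-!
# P161: the free Ising measure on the `d`-regular tree is a factor of iid for all
`tanh β < (d - 1)^(-1/2)`
-/

open MeasureTheory

namespace Vale.Agent.Results.P161.FreeIsingFIID

open Vale.Agent.IsingFIID

/-- For every `d ≥ 3` and every `β ≥ 0` with `tanh β < (d - 1)^(-1/2)`, the free zero-field Ising
measure on the `d`-regular tree exists, is unique, and is a factor of iid. -/
theorem result {V : Type*} (G : SimpleGraph V) [G.LocallyFinite] (hG : G.IsTree) (d : ℕ)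
    (hd : 3 ≤ d) (hreg : G.IsRegularOfDegree d) (β : ℝ) (hβ : 0 ≤ β)
    (hθ : Real.tanh β < 1 / Real.sqrt ((d : ℝ) - 1)) :
    ∃ μ : Measure (V → Bool), IsFreeIsing G (Real.tanh β) μ ∧
      (∀ ν : Measure (V → Bool), IsFreeIsing G (Real.tanh β) ν → ν = μ) ∧
      IsFactorOfIID G μ := by
  classical
  have hd' : (3 : ℝ) ≤ d := by exact_mod_cast hd
  have h0 : 0 ≤ Real.tanh β := by
    rw [Real.tanh_eq_sinh_div_cosh]
    exact div_nonneg (Real.sinh_nonneg_iff.2 hβ) (Real.cosh_pos β).le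
  have hpos : 0 < (d : ℝ) - 1 := by linarith
  have hsq : ((d : ℝ) - 1) * Real.tanh β ^ 2 < 1 := by
    have h1 : Real.tanh β ^ 2 < (1 / Real.sqrt ((d : ℝ) - 1)) ^ 2 :=
      pow_lt_pow_left₀ hθ h0 (by norm_num)
    rw [div_pow, one_pow, Real.sq_sqrt hpos.le, lt_div_iff₀ hpos] at h1
    linarith
  have h1 : Real.tanh β ≤ 1 := by
    by_contra hcon
    push Not at hcon
    have : 1 ≤ Real.tanh β ^ 2 := one_le_pow₀ hcon.le
    nlinarith
  have hcount : Countable V := countable_of_connected G hG.connected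
  obtain ⟨μ, hμ⟩ := exists_isFreeIsing G hG h0 h1
  exact ⟨μ, hμ, fun ν hν => IsFreeIsing.unique hG hν hμ,
    isFactorOfIID_of_isFreeIsing G hG hd hreg h0 hsq hμ⟩

end Vale.Agent.Results.P161.FreeIsingFIID
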